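import Vale.Agent.P102.Flow

open MeasureTheory Filter Topology

namespace Vale.Agent.Results.P102.CompactShear

open Vale.Agent.P102

theorem result {Ω : Type*} [MeasurableSpace Ω] (μ : Measure Ω) [IsProbabilityMeasure μ]
    (T : Ω ≃ᵐ Ω) (hT : MeasurePreserving T μ μ) :
    (HasDecorrelatingShears μ T → ∀ k, MixingOfOrder μ T k) ∧
    ∀ g z : ℝ → Ω → Ω, (∀ s, MeasurePreserving (g s) μ μ) →
      (∀ B, MeasurableSet B → Tendsto (fun s => μ.real (symmDiff (g s ⁻¹' B) B)) (𝓝 0) (𝓝 0)) →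
      IsContinuousFlow μ z → IsWeaklyMixingFlow μ z →
      (∀ s, T ∘ g s =ᵐ[μ] g s ∘ z s ∘ T) → (∀ s, T ∘ z s =ᵐ[μ] z s ∘ T) →
      ∀ k, MixingOfOrder μ T k := by
  refine ⟨fun h k => mixingOfOrder_of_mixN hT (mixN_all hT h k), ?_⟩
  intro g z hg hg0 hz hw hTg hTz k
  exact mixingOfOrder_of_mixN hT
    (mixN_all hT (decorrelatingShears_of_relation hT hz hg hg0 hTg hTz hw) k)

end Vale.Agent.Results.P102.CompactShear
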